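import Vale.Agent.Lib.P072.Defs

namespace Vale.Agent.P072

open Set

variable {ι κ : Type*}

/-! ### elementary facts -/

lemma mon_pos [Fintype ι] {x : ι → ℝ} (hx : ∀ i, 0 < x i) (y : Cplx ι) : 0 < mon x y :=
  Finset.prod_pos fun i _ => pow_pos (hx i) _

lemma continuous_mon [Fintype ι] (y : Cplx ι) : Continuous fun x : ι → ℝ => mon x y := by
  unfold mon
  fun_prop

lemma mon_elim [Fintype ι] [Fintype κ] (x : ι ⊕ κ → ℝ) (a : Cplx ι) (b : Cplx κ) :
    mon x (Sum.elim a b) = mon (fun i => x (Sum.inl i)) a * mon (fun j => x (Sum.inr j)) b := by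
  simp [mon, Fintype.prod_sum_type]

lemma mon_zero [Fintype ι] (x : ι → ℝ) : mon x (0 : Cplx ι) = 1 := by
  simp [mon]

lemma lift₁_injective : Function.Injective (lift₁ : Cplx ι × Cplx ι → Cplx (ι ⊕ κ) × Cplx (ι ⊕ κ)) := by
  intro r s h
  have h1 := congrArg Prod.fst h
  have h2 := congrArg Prod.snd h
  simp only [lift₁] at h1 h2
  ext i
  · exact congrFun h1 (Sum.inl i)
  · exact congrFun h2 (Sum.inl i)

lemma lift₂_injective (γ : Cplx κ → Cplx ι) : Function.Injective (lift₂ γ) := by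
  intro r s h
  have h1 := congrArg Prod.fst h
  have h2 := congrArg Prod.snd h
  simp only [lift₂] at h1 h2
  ext j
  · exact congrFun h1 (Sum.inr j)
  · exact congrFun h2 (Sum.inr j)

lemma lift_disjoint (N₁ : Network ι) (N₂ : Network κ) (γ : Cplx κ → Cplx ι) :
    ∀ r ∈ N₁.R, ∀ s ∈ N₂.R, (lift₁ r : Cplx (ι ⊕ κ) × Cplx (ι ⊕ κ)) ≠ lift₂ γ s := by
  intro r _ s hs h
  apply N₂.ne s hs
  have h1 := congrArg Prod.fst h
  have h2 := congrArg Prod.snd h
  simp only [lift₁, lift₂] at h1 h2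
  funext j
  have e1 := congrFun h1 (Sum.inr j)
  have e2 := congrFun h2 (Sum.inr j)
  simp only [Sum.elim_inr, Pi.zero_apply] at e1 e2
  rw [← e1, ← e2]

/-- sums over the reactions of a cascade -/
lemma sum_cascade {M : Type*} [AddCommMonoid M] (N₁ : Network ι) (N₂ : Network κ)
    (γ : Cplx κ → Cplx ι) (F : Cplx (ι ⊕ κ) × Cplx (ι ⊕ κ) → M) :
    ∑ r ∈ (cascade N₁ N₂ γ).R, F r
      = ∑ r ∈ N₁.R, F (lift₁ r) + ∑ r ∈ N₂.R, F (lift₂ γ r) := by
  classical
  have hdisj : Disjoint (N₁.R.image (lift₁ : _ → Cplx (ι ⊕ κ) × Cplx (ι ⊕ κ)))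
      (N₂.R.image (lift₂ γ)) := by
    rw [Finset.disjoint_left]
    intro a ha hb
    obtain ⟨r, hr, rfl⟩ := Finset.mem_image.1 ha
    obtain ⟨s, hs, hs'⟩ := Finset.mem_image.1 hb
    exact lift_disjoint N₁ N₂ γ r hr s hs hs'.symm
  have : (cascade N₁ N₂ γ).R = N₁.R.image lift₁ ∪ N₂.R.image (lift₂ γ) := by
    unfold cascade
    congr!
  rw [this, Finset.sum_union hdisj, Finset.sum_image (fun a _ b _ h => lift₁_injective h),
    Finset.sum_image (fun a _ b _ h => lift₂_injective γ h)]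

lemma mem_cascade {N₁ : Network ι} {N₂ : Network κ} {γ : Cplx κ → Cplx ι}
    {r : Cplx (ι ⊕ κ) × Cplx (ι ⊕ κ)} :
    r ∈ (cascade N₁ N₂ γ).R ↔ (∃ s ∈ N₁.R, lift₁ s = r) ∨ (∃ s ∈ N₂.R, lift₂ γ s = r) := by
  classical
  have : (cascade N₁ N₂ γ).R = N₁.R.image lift₁ ∪ N₂.R.image (lift₂ γ) := by
    unfold cascade
    congr!
  rw [this, Finset.mem_union, Finset.mem_image, Finset.mem_image]


/-! ### the vector field of a cascade -/

lemma rvec_lift₁_inl (r : Cplx ι × Cplx ι) (i : ι) :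
    rvec (lift₁ r : Cplx (ι ⊕ κ) × Cplx (ι ⊕ κ)) (Sum.inl i) = rvec r i := by
  simp [rvec, lift₁]

lemma rvec_lift₁_inr (r : Cplx ι × Cplx ι) (j : κ) :
    rvec (lift₁ r : Cplx (ι ⊕ κ) × Cplx (ι ⊕ κ)) (Sum.inr j) = 0 := by
  simp [rvec, lift₁]

lemma rvec_lift₂_inl (γ : Cplx κ → Cplx ι) (r : Cplx κ × Cplx κ) (h : γ r.1 = γ r.2) (i : ι) :
    rvec (lift₂ γ r) (Sum.inl i) = 0 := by
  simp [rvec, lift₂, h]

lemma rvec_lift₂_inr (γ : Cplx κ → Cplx ι) (r : Cplx κ × Cplx κ) (j : κ) :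
    rvec (lift₂ γ r) (Sum.inr j) = rvec r j := by
  simp [rvec, lift₂]

/-- effective rates seen by the second network inside a cascade -/
def effRate [Fintype ι] (γ : Cplx κ → Cplx ι) (k : Cplx (ι ⊕ κ) × Cplx (ι ⊕ κ) → ℝ)
    (u : ι → ℝ) : Cplx κ × Cplx κ → ℝ :=
  fun r => k (lift₂ γ r) * mon u (γ r.1)

lemma field_cascade_inl [Fintype ι] [Fintype κ] (N₁ : Network ι) (N₂ : Network κ)
    (γ : Cplx κ → Cplx ι) (hγ : ∀ r ∈ N₂.R, γ r.1 = γ r.2)
    (k : Cplx (ι ⊕ κ) × Cplx (ι ⊕ κ) → ℝ) (x : ι ⊕ κ → ℝ) (i : ι) :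
    field (cascade N₁ N₂ γ) k x (Sum.inl i)
      = field N₁ (fun r => k (lift₁ r)) (fun i => x (Sum.inl i)) i := by
  unfold field
  rw [sum_cascade]
  simp only [Pi.add_apply, Finset.sum_apply, Pi.smul_apply, smul_eq_mul]
  have h2 : ∑ r ∈ N₂.R, k (lift₂ γ r) * mon x (lift₂ γ r).1 * rvec (lift₂ γ r) (Sum.inl i) = 0 := by
    apply Finset.sum_eq_zero
    intro r hr
    rw [rvec_lift₂_inl γ r (hγ r hr), mul_zero]
  rw [h2, add_zero]
  apply Finset.sum_congr rfl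
  intro r _
  rw [rvec_lift₁_inl]
  congr 2
  simp only [lift₁]
  rw [mon_elim, mon_zero, mul_one]

lemma field_cascade_inr [Fintype ι] [Fintype κ] (N₁ : Network ι) (N₂ : Network κ)
    (γ : Cplx κ → Cplx ι)
    (k : Cplx (ι ⊕ κ) × Cplx (ι ⊕ κ) → ℝ) (x : ι ⊕ κ → ℝ) (j : κ) :
    field (cascade N₁ N₂ γ) k x (Sum.inr j)
      = field N₂ (effRate γ k (fun i => x (Sum.inl i))) (fun j => x (Sum.inr j)) j := by
  unfold field
  rw [sum_cascade]
  simp only [Pi.add_apply, Finset.sum_apply, Pi.smul_apply, smul_eq_mul]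
  have h1 : ∑ r ∈ N₁.R, k (lift₁ r) * mon x (lift₁ r : Cplx (ι ⊕ κ) × Cplx (ι ⊕ κ)).1
      * rvec (lift₁ r : Cplx (ι ⊕ κ) × Cplx (ι ⊕ κ)) (Sum.inr j) = 0 := by
    apply Finset.sum_eq_zero
    intro r _
    rw [rvec_lift₁_inr, mul_zero]
  rw [h1, zero_add]
  apply Finset.sum_congr rfl
  intro r _
  rw [rvec_lift₂_inr]
  congr 1
  simp only [lift₂, effRate]
  rw [mon_elim, mul_assoc]

/-- A curve solves the cascade iff its two halves solve the two (coupled) systems. -/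
lemma isSol_cascade_iff [Fintype ι] [Fintype κ] (N₁ : Network ι) (N₂ : Network κ)
    (γ : Cplx κ → Cplx ι) (hγ : ∀ r ∈ N₂.R, γ r.1 = γ r.2)
    (k : ℝ → Cplx (ι ⊕ κ) × Cplx (ι ⊕ κ) → ℝ) (x : ℝ → ι ⊕ κ → ℝ) :
    IsSol (cascade N₁ N₂ γ) k x ↔
      IsSol N₁ (fun t r => k t (lift₁ r)) (fun t i => x t (Sum.inl i)) ∧
      IsSol N₂ (fun t => effRate γ (k t) (fun i => x t (Sum.inl i))) (fun t j => x t (Sum.inr j)) := by
  unfold IsSol
  constructor
  · intro h
    refine ⟨fun t ht => ⟨fun i => (h t ht).1 _, ?_⟩, fun t ht => ⟨fun j => (h t ht).1 _, ?_⟩⟩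
    · rw [hasDerivWithinAt_pi]
      intro i
      have := (hasDerivWithinAt_pi.1 (h t ht).2) (Sum.inl i)
      rwa [field_cascade_inl N₁ N₂ γ hγ] at this
    · rw [hasDerivWithinAt_pi]
      intro j
      have := (hasDerivWithinAt_pi.1 (h t ht).2) (Sum.inr j)
      rwa [field_cascade_inr N₁ N₂ γ] at this
  · rintro ⟨h1, h2⟩ t ht
    refine ⟨?_, ?_⟩
    · rintro (i | j)
      · exact (h1 t ht).1 i
      · exact (h2 t ht).1 j
    · rw [hasDerivWithinAt_pi]
      rintro (i | j)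
      · rw [field_cascade_inl N₁ N₂ γ hγ]
        exact (hasDerivWithinAt_pi.1 (h1 t ht).2) i
      · rw [field_cascade_inr N₁ N₂ γ]
        exact (hasDerivWithinAt_pi.1 (h2 t ht).2) j


/-! ### stoichiometric classes -/

/-- restriction to the first block, as a linear map -/
def resL (ι κ : Type*) : (ι ⊕ κ → ℝ) →ₗ[ℝ] (ι → ℝ) where
  toFun u := fun i => u (Sum.inl i)
  map_add' _ _ := rfl
  map_smul' _ _ := rfl

/-- restriction to the second block, as a linear map -/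
def resR (ι κ : Type*) : (ι ⊕ κ → ℝ) →ₗ[ℝ] (κ → ℝ) where
  toFun u := fun j => u (Sum.inr j)
  map_add' _ _ := rfl
  map_smul' _ _ := rfl

/-- extension by zero from the first block -/
def extL (ι κ : Type*) : (ι → ℝ) →ₗ[ℝ] (ι ⊕ κ → ℝ) where
  toFun u := Sum.elim u 0
  map_add' u v := by
    funext a; cases a <;> simp
  map_smul' c u := by
    funext a; cases a <;> simp

/-- extension by zero from the second block -/
def extR (ι κ : Type*) : (κ → ℝ) →ₗ[ℝ] (ι ⊕ κ → ℝ) where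
  toFun u := Sum.elim 0 u
  map_add' u v := by
    funext a; cases a <;> simp
  map_smul' c u := by
    funext a; cases a <;> simp

lemma mem_stoich_cascade (N₁ : Network ι) (N₂ : Network κ)
    (γ : Cplx κ → Cplx ι) (hγ : ∀ r ∈ N₂.R, γ r.1 = γ r.2) (u : ι ⊕ κ → ℝ) :
    u ∈ stoich (cascade N₁ N₂ γ) ↔
      (fun i => u (Sum.inl i)) ∈ stoich N₁ ∧ (fun j => u (Sum.inr j)) ∈ stoich N₂ := by
  constructor
  · intro hu
    constructor
    · have : stoich (cascade N₁ N₂ γ) ≤ (stoich N₁).comap (resL ι κ) := by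
        unfold stoich
        rw [Submodule.span_le]
        rintro v ⟨r, hr, rfl⟩
        rcases mem_cascade.1 hr with ⟨s, hs, rfl⟩ | ⟨s, hs, rfl⟩
        · have : resL ι κ (rvec (lift₁ s)) = rvec s := by
            funext i; exact rvec_lift₁_inl s i
          simp only [SetLike.mem_coe, Submodule.mem_comap, this]
          exact Submodule.subset_span ⟨s, hs, rfl⟩
        · have : resL ι κ (rvec (lift₂ γ s)) = 0 := by
            funext i; exact rvec_lift₂_inl γ s (hγ s hs) i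
          simp only [SetLike.mem_coe, Submodule.mem_comap, this]
          exact Submodule.zero_mem _
      exact this hu
    · have : stoich (cascade N₁ N₂ γ) ≤ (stoich N₂).comap (resR ι κ) := by
        unfold stoich
        rw [Submodule.span_le]
        rintro v ⟨r, hr, rfl⟩
        rcases mem_cascade.1 hr with ⟨s, hs, rfl⟩ | ⟨s, hs, rfl⟩
        · have : resR ι κ (rvec (lift₁ s)) = 0 := by
            funext j; exact rvec_lift₁_inr s j
          simp only [SetLike.mem_coe, Submodule.mem_comap, this]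
          exact Submodule.zero_mem _
        · have : resR ι κ (rvec (lift₂ γ s)) = rvec s := by
            funext j; exact rvec_lift₂_inr γ s j
          simp only [SetLike.mem_coe, Submodule.mem_comap, this]
          exact Submodule.subset_span ⟨s, hs, rfl⟩
      exact this hu
  · rintro ⟨h1, h2⟩
    have e1 : stoich N₁ ≤ (stoich (cascade N₁ N₂ γ)).comap (extL ι κ) := by
      unfold stoich
      rw [Submodule.span_le]
      rintro v ⟨r, hr, rfl⟩
      have : extL ι κ (rvec r) = rvec (lift₁ r) := by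
        funext a
        cases a with
        | inl i => exact (rvec_lift₁_inl r i).symm
        | inr j => exact (rvec_lift₁_inr r j).symm
      simp only [SetLike.mem_coe, Submodule.mem_comap, this]
      exact Submodule.subset_span ⟨lift₁ r, mem_cascade.2 (Or.inl ⟨r, hr, rfl⟩), rfl⟩
    have e2 : stoich N₂ ≤ (stoich (cascade N₁ N₂ γ)).comap (extR ι κ) := by
      unfold stoich
      rw [Submodule.span_le]
      rintro v ⟨r, hr, rfl⟩
      have : extR ι κ (rvec r) = rvec (lift₂ γ r) := by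
        funext a
        cases a with
        | inl i => exact (rvec_lift₂_inl γ r (hγ r hr) i).symm
        | inr j => exact (rvec_lift₂_inr γ r j).symm
      simp only [SetLike.mem_coe, Submodule.mem_comap, this]
      exact Submodule.subset_span ⟨lift₂ γ r, mem_cascade.2 (Or.inr ⟨r, hr, rfl⟩), rfl⟩
    have hu : u = extL ι κ (fun i => u (Sum.inl i)) + extR ι κ (fun j => u (Sum.inr j)) := by
      funext a
      cases a <;> simp [extL, extR]
    rw [hu]
    exact Submodule.add_mem _ (e1 h1) (e2 h2)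

lemma mem_posClass_cascade (N₁ : Network ι) (N₂ : Network κ)
    (γ : Cplx κ → Cplx ι) (hγ : ∀ r ∈ N₂.R, γ r.1 = γ r.2) (c x : ι ⊕ κ → ℝ) :
    x ∈ posClass (cascade N₁ N₂ γ) c ↔
      (fun i => x (Sum.inl i)) ∈ posClass N₁ (fun i => c (Sum.inl i)) ∧
      (fun j => x (Sum.inr j)) ∈ posClass N₂ (fun j => c (Sum.inr j)) := by
  unfold posClass
  simp only [Set.mem_ofPred_eq]
  rw [mem_stoich_cascade N₁ N₂ γ hγ]
  constructor
  · rintro ⟨hp, h1, h2⟩
    exact ⟨⟨fun i => hp _, h1⟩, ⟨fun j => hp _, h2⟩⟩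
  · rintro ⟨⟨hp1, h1⟩, ⟨hp2, h2⟩⟩
    refine ⟨?_, h1, h2⟩
    rintro (i | j)
    · exact hp1 i
    · exact hp2 j

/-- the vector field takes values in the stoichiometric subspace -/
lemma field_mem_stoich [Fintype ι] (N : Network ι) (k : Cplx ι × Cplx ι → ℝ) (x : ι → ℝ) :
    field N k x ∈ stoich N := by
  unfold field
  apply Submodule.sum_mem
  intro r hr
  apply Submodule.smul_mem
  exact Submodule.subset_span ⟨r, hr, rfl⟩

/-- solutions stay in their stoichiometric class -/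
lemma IsSol.sub_mem_stoich [Fintype ι] {N : Network ι} {k : ℝ → Cplx ι × Cplx ι → ℝ}
    {x : ℝ → ι → ℝ} (hx : IsSol N k x) {t : ℝ} (ht : 0 ≤ t) : x t - x 0 ∈ stoich N := by
  by_contra hne
  obtain ⟨φ, hφ1, hφ2⟩ := Submodule.exists_le_ker_of_notMem hne
  let Φ : (ι → ℝ) →L[ℝ] ℝ := LinearMap.toContinuousLinearMap φ
  have hcont : ContinuousOn (fun s => Φ (x s)) (Icc 0 t) := by
    intro s hs
    have h1 : ContinuousWithinAt x (Ici 0) s := (hx s hs.1).2.continuousWithinAt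
    exact (Φ.continuous.continuousAt.comp_continuousWithinAt h1).mono Icc_subset_Ici_self
  have hder : ∀ s ∈ Ico 0 t, HasDerivWithinAt (fun s => Φ (x s)) 0 (Ici s) s := by
    intro s hs
    have h1 : HasDerivWithinAt x (field N (k s) (x s)) (Ici s) s :=
      (hx s hs.1).2.mono (Ici_subset_Ici.2 hs.1)
    have h2 := Φ.hasFDerivAt.comp_hasDerivWithinAt s h1
    have h3 : Φ (field N (k s) (x s)) = 0 := by
      have := hφ2 (field_mem_stoich N (k s) (x s))
      simpa [Φ] using this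
    rw [h3] at h2
    exact h2
  have := constant_of_has_deriv_right_zero hcont hder t ⟨ht, le_refl t⟩
  apply hφ1
  have h4 : Φ (x t) - Φ (x 0) = 0 := by rw [this]; simp
  simpa [Φ, map_sub] using h4

lemma IsSol.mem_posClass [Fintype ι] {N : Network ι} {k : ℝ → Cplx ι × Cplx ι → ℝ}
    {x : ℝ → ι → ℝ} (hx : IsSol N k x) {c : ι → ℝ} (h0 : x 0 ∈ posClass N c) {t : ℝ}
    (ht : 0 ≤ t) : x t ∈ posClass N c := by
  refine ⟨(hx t ht).1, ?_⟩
  have : x t - c = (x t - x 0) + (x 0 - c) := by abel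
  rw [this]
  exact Submodule.add_mem _ (hx.sub_mem_stoich ht) h0.2


/-! ### time shifts, bounds -/

lemma IsSol.shift [Fintype ι] {N : Network ι} {k : ℝ → Cplx ι × Cplx ι → ℝ}
    {x : ℝ → ι → ℝ} (hx : IsSol N k x) {T : ℝ} (hT : 0 ≤ T) :
    IsSol N (fun t => k (t + T)) (fun t => x (t + T)) := by
  intro t ht
  have htT : 0 ≤ t + T := by linarith
  refine ⟨(hx _ htT).1, ?_⟩
  have h1 := (hx _ htT).2
  have h2 : HasDerivWithinAt (fun s : ℝ => s + T) 1 (Ici 0) t :=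
    ((hasDerivAt_id t).add_const T).hasDerivWithinAt
  have h3 : MapsTo (fun s : ℝ => s + T) (Ici 0) (Ici 0) := by
    intro s hs
    simp only [mem_Ici] at hs ⊢
    linarith
  have h4 := HasDerivWithinAt.scomp t h1 h2 h3
  rw [one_smul] at h4
  exact h4

lemma IsSol.continuousOn [Fintype ι] {N : Network ι} {k : ℝ → Cplx ι × Cplx ι → ℝ}
    {x : ℝ → ι → ℝ} (hx : IsSol N k x) : ContinuousOn x (Ici 0) :=
  fun t ht => (hx t ht).2.continuousWithinAt

/-- a monomial is bounded above and away from zero on a compact subset of the open orthant -/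
lemma exists_mon_bound [Fintype ι] {K : Set (ι → ℝ)} (hK : IsCompact K)
    (hpos : ∀ x ∈ K, ∀ i, 0 < x i) (y : Cplx ι) :
    ∃ δ : ℝ, 0 < δ ∧ ∀ x ∈ K, δ ≤ mon x y ∧ mon x y ≤ δ⁻¹ := by
  rcases K.eq_empty_or_nonempty with rfl | hne
  · exact ⟨1, one_pos, by simp⟩
  obtain ⟨a, ha, hamin⟩ := hK.exists_isMinOn hne (continuous_mon y).continuousOn
  obtain ⟨b, hb, hbmax⟩ := hK.exists_isMaxOn hne (continuous_mon y).continuousOn
  have hapos : 0 < mon a y := mon_pos (hpos a ha) y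
  have hbpos : 0 < mon b y := mon_pos (hpos b hb) y
  refine ⟨min (mon a y) (mon b y)⁻¹, lt_min hapos (inv_pos.2 hbpos), ?_⟩
  intro x hx
  refine ⟨le_trans (min_le_left _ _) (hamin hx), ?_⟩
  have h1 : mon x y ≤ mon b y := hbmax hx
  have h2 : min (mon a y) (mon b y)⁻¹ ≤ (mon b y)⁻¹ := min_le_right _ _
  have h3 : 0 < min (mon a y) (mon b y)⁻¹ := lt_min hapos (inv_pos.2 hbpos)
  calc mon x y ≤ mon b y := h1
    _ = ((mon b y)⁻¹)⁻¹ := (inv_inv _).symm
    _ ≤ (min (mon a y) (mon b y)⁻¹)⁻¹ := inv_anti₀ h3 h2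

/-- uniform version over a finite set of exponents -/
lemma exists_mon_bound_finset [Fintype ι] {α : Type*} (s : Finset α) (g : α → Cplx ι)
    {K : Set (ι → ℝ)} (hK : IsCompact K) (hpos : ∀ x ∈ K, ∀ i, 0 < x i) :
    ∃ δ : ℝ, 0 < δ ∧ ∀ a ∈ s, ∀ x ∈ K, δ ≤ mon x (g a) ∧ mon x (g a) ≤ δ⁻¹ := by
  classical
  induction s using Finset.induction_on with
  | empty => exact ⟨1, one_pos, by simp⟩
  | insert a s _ ih =>
    obtain ⟨δ₁, h₁, hb₁⟩ := ih
    obtain ⟨δ₂, h₂, hb₂⟩ := exists_mon_bound hK hpos (g a)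
    have hm : 0 < min δ₁ δ₂ := lt_min h₁ h₂
    refine ⟨min δ₁ δ₂, hm, ?_⟩
    intro b hb x hx
    rcases Finset.mem_insert.1 hb with rfl | hb
    · exact ⟨le_trans (min_le_right _ _) (hb₂ x hx).1,
        le_trans (hb₂ x hx).2 (inv_anti₀ hm (min_le_right _ _))⟩
    · exact ⟨le_trans (min_le_left _ _) (hb₁ b hb x hx).1,
        le_trans (hb₁ b hb x hx).2 (inv_anti₀ hm (min_le_left _ _))⟩

/-- positive constant rates lie in some `[ε, ε⁻¹]` -/
lemma exists_rate_bound {α : Type*} (s : Finset α) (k : α → ℝ) (hk : ∀ a ∈ s, 0 < k a) :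
    ∃ ε : ℝ, 0 < ε ∧ ∀ a ∈ s, ε ≤ k a ∧ k a ≤ ε⁻¹ := by
  classical
  induction s using Finset.induction_on with
  | empty => exact ⟨1, one_pos, by simp⟩
  | insert a s _ ih =>
    obtain ⟨δ₁, h₁, hb₁⟩ := ih (fun b hb => hk b (Finset.mem_insert_of_mem hb))
    have ha : 0 < k a := hk a (Finset.mem_insert_self a s)
    have hm : 0 < min δ₁ (min (k a) (k a)⁻¹) := lt_min h₁ (lt_min ha (inv_pos.2 ha))
    refine ⟨min δ₁ (min (k a) (k a)⁻¹), hm, ?_⟩
    intro b hb
    rcases Finset.mem_insert.1 hb with rfl | hb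
    · refine ⟨le_trans (min_le_right _ _) (min_le_left _ _), ?_⟩
      calc k b = ((k b)⁻¹)⁻¹ := (inv_inv _).symm
        _ ≤ _ := inv_anti₀ hm (le_trans (min_le_right _ _) (min_le_right _ _))
    · exact ⟨le_trans (min_le_left _ _) (hb₁ b hb).1,
        le_trans (hb₁ b hb).2 (inv_anti₀ hm (min_le_left _ _))⟩

/-- variable-rate permanence implies permanence for all constant positive rates -/
lemma VarPermanent.permanentOn [Fintype ι] {N : Network ι} (h : VarPermanent N)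
    (k : Cplx ι × Cplx ι → ℝ) (hk : ∀ r ∈ N.R, 0 < k r) (c : ι → ℝ) (hc : ∀ i, 0 < c i) :
    PermanentOn N k c := by
  obtain ⟨ε, hε, hb⟩ := exists_rate_bound N.R k hk
  have hr : RatesIn N ε (fun _ => k) := fun r hr => ⟨continuousOn_const, fun _ _ => hb r hr⟩
  obtain ⟨hex, K, hK, hKc, hatt⟩ := h ε hε c hc
  exact ⟨hex _ hr, K, hK, hKc, hatt _ hr⟩


/-! ### weak reversibility of a cascade -/

lemma weaklyReversible_cascade {N₁ : Network ι} {N₂ : Network κ} (γ : Cplx κ → Cplx ι)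
    (h₁ : WeaklyReversible N₁) (h₂ : WeaklyReversible N₂) :
    WeaklyReversible (cascade N₁ N₂ γ) := by
  intro r hr
  rcases mem_cascade.1 hr with ⟨s, hs, rfl⟩ | ⟨s, hs, rfl⟩
  · have key : ∀ a b : Cplx ι, Relation.ReflTransGen (fun a b => (a, b) ∈ N₁.R) a b →
        Relation.ReflTransGen (fun a b => (a, b) ∈ (cascade N₁ N₂ γ).R)
          (Sum.elim a 0 : Cplx (ι ⊕ κ)) (Sum.elim b 0) := by
      intro a b hab
      induction hab with
      | refl => exact Relation.ReflTransGen.refl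
      | tail _ hbc ih => exact ih.tail (mem_cascade.2 (Or.inl ⟨(_, _), hbc, rfl⟩))
    exact key _ _ (h₁ s hs)
  · have key : ∀ a b : Cplx κ, Relation.ReflTransGen (fun a b => (a, b) ∈ N₂.R) a b →
        Relation.ReflTransGen (fun a b => (a, b) ∈ (cascade N₁ N₂ γ).R)
          (Sum.elim (γ a) a : Cplx (ι ⊕ κ)) (Sum.elim (γ b) b) := by
      intro a b hab
      induction hab with
      | refl => exact Relation.ReflTransGen.refl
      | tail _ hbc ih => exact ih.tail (mem_cascade.2 (Or.inr ⟨(_, _), hbc, rfl⟩))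
    exact key _ _ (h₂ s hs)

/-! ### the main theorem -/

lemma ratesIn_lift₁ {N₁ : Network ι} {N₂ : Network κ} {γ : Cplx κ → Cplx ι} {ε : ℝ}
    {k : ℝ → Cplx (ι ⊕ κ) × Cplx (ι ⊕ κ) → ℝ} (hk : RatesIn (cascade N₁ N₂ γ) ε k) :
    RatesIn N₁ ε (fun t r => k t (lift₁ r)) :=
  fun r hr => hk (lift₁ r) (mem_cascade.2 (Or.inl ⟨r, hr, rfl⟩))

/-- effective rates are admissible as soon as the catalysts stay in a set on which the catalyst
monomials are bounded by `δ` and `δ⁻¹` -/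
lemma ratesIn_eff [Fintype ι] {N₁ : Network ι} {N₂ : Network κ} {γ : Cplx κ → Cplx ι} {ε δ : ℝ}
    (hε : 0 < ε) (hδ : 0 < δ)
    {k : ℝ → Cplx (ι ⊕ κ) × Cplx (ι ⊕ κ) → ℝ} (hk : RatesIn (cascade N₁ N₂ γ) ε k)
    {u : ℝ → ι → ℝ} (hu : ContinuousOn u (Ici 0))
    (hb : ∀ r ∈ N₂.R, ∀ t, 0 ≤ t → δ ≤ mon (u t) (γ r.1) ∧ mon (u t) (γ r.1) ≤ δ⁻¹) :
    RatesIn N₂ (ε * δ) (fun t => effRate γ (k t) (u t)) := by
  intro r hr
  obtain ⟨hc, hbd⟩ := hk (lift₂ γ r) (mem_cascade.2 (Or.inr ⟨r, hr, rfl⟩))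
  refine ⟨?_, ?_⟩
  · unfold effRate
    exact hc.mul ((continuous_mon (γ r.1)).comp_continuousOn hu)
  · intro t ht
    obtain ⟨a1, a2⟩ := hbd t ht
    obtain ⟨b1, b2⟩ := hb r hr t ht
    unfold effRate
    constructor
    · exact mul_le_mul a1 b1 hδ.le (le_trans hε.le a1)
    · rw [mul_inv]
      exact mul_le_mul a2 b2 (le_trans hδ.le b1) (inv_pos.2 hε).le

lemma continuous_sumElim [Fintype ι] [Fintype κ] :
    Continuous fun p : (ι → ℝ) × (κ → ℝ) => (Sum.elim p.1 p.2 : ι ⊕ κ → ℝ) := by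
  apply continuous_pi
  rintro (i | j)
  · exact (continuous_apply i).comp continuous_fst
  · exact (continuous_apply j).comp continuous_snd

theorem varPermanent_cascade [Fintype ι] [Fintype κ] (N₁ : Network ι) (N₂ : Network κ)
    (γ : Cplx κ → Cplx ι) (hγ : ∀ r ∈ N₂.R, γ r.1 = γ r.2)
    (h₁ : VarPermanent N₁) (h₂ : VarPermanent N₂) : VarPermanent (cascade N₁ N₂ γ) := by
  intro ε hε c hc
  set c₁ : ι → ℝ := fun i => c (Sum.inl i) with hc₁
  set c₂ : κ → ℝ := fun j => c (Sum.inr j) with hc₂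
  obtain ⟨ex₁, K₁, hK₁, hK₁c, att₁⟩ := h₁ ε hε c₁ (fun i => hc _)
  have hK₁pos : ∀ x ∈ K₁, ∀ i, 0 < x i := fun x hx => (hK₁c hx).1
  obtain ⟨δ, hδ, hbδ⟩ := exists_mon_bound_finset N₂.R (fun r => γ r.1) hK₁ hK₁pos
  obtain ⟨-, K₂, hK₂, hK₂c, att₂⟩ := h₂ (ε * δ) (mul_pos hε hδ) c₂ (fun j => hc _)
  refine ⟨?_, ?_⟩
  · -- existence
    intro k hk x0 hx0
    obtain ⟨hx01, hx02⟩ := (mem_posClass_cascade N₁ N₂ γ hγ c x0).1 hx0
    obtain ⟨x₁, hs₁, hx₁0⟩ := ex₁ _ (ratesIn_lift₁ hk) _ hx01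
    obtain ⟨T, hT⟩ := att₁ _ (ratesIn_lift₁ hk) x₁ hs₁ (by rw [hx₁0]; exact hx01)
    set T' := max T 0 with hT'
    have hT'0 : 0 ≤ T' := le_max_right _ _
    -- compact set containing the whole trajectory of the catalysts
    have hKc : IsCompact (x₁ '' Icc 0 T' ∪ K₁) :=
      (isCompact_Icc.image_of_continuousOn (hs₁.continuousOn.mono Icc_subset_Ici_self)).union hK₁
    have hKpos : ∀ x ∈ x₁ '' Icc 0 T' ∪ K₁, ∀ i, 0 < x i := by
      rintro x (⟨t, ht, rfl⟩ | hx)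
      · exact (hs₁ t ht.1).1
      · exact hK₁pos x hx
    obtain ⟨δ', hδ', hbδ'⟩ := exists_mon_bound_finset N₂.R (fun r => γ r.1) hKc hKpos
    have hmem : ∀ t, 0 ≤ t → x₁ t ∈ x₁ '' Icc 0 T' ∪ K₁ := by
      intro t ht
      rcases le_total t T' with h | h
      · exact Or.inl ⟨t, ⟨ht, h⟩, rfl⟩
      · exact Or.inr (hT t (le_trans (le_max_left _ _) h))
    have hr₂ : RatesIn N₂ (ε * δ') (fun t => effRate γ (k t) (x₁ t)) :=
      ratesIn_eff hε hδ' hk hs₁.continuousOn (fun r hr t ht => hbδ' r hr _ (hmem t ht))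
    obtain ⟨ex₂, -⟩ := h₂ (ε * δ') (mul_pos hε hδ') c₂ (fun j => hc _)
    obtain ⟨x₂, hs₂, hx₂0⟩ := ex₂ _ hr₂ _ hx02
    refine ⟨fun t => Sum.elim (x₁ t) (x₂ t), ?_, ?_⟩
    · rw [isSol_cascade_iff N₁ N₂ γ hγ]
      exact ⟨hs₁, hs₂⟩
    · funext a
      cases a with
      | inl i => simp [hx₁0]
      | inr j => simp [hx₂0]
  · -- attraction
    refine ⟨(fun p : (ι → ℝ) × (κ → ℝ) => (Sum.elim p.1 p.2 : ι ⊕ κ → ℝ)) '' (K₁ ×ˢ K₂),
      (hK₁.prod hK₂).image continuous_sumElim, ?_, ?_⟩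
    · rintro _ ⟨⟨a, b⟩, ⟨ha, hb⟩, rfl⟩
      rw [mem_posClass_cascade N₁ N₂ γ hγ]
      exact ⟨hK₁c ha, hK₂c hb⟩
    · intro k hk x hs hx0
      obtain ⟨hx01, hx02⟩ := (mem_posClass_cascade N₁ N₂ γ hγ c (x 0)).1 hx0
      obtain ⟨hs₁, hs₂⟩ := (isSol_cascade_iff N₁ N₂ γ hγ k x).1 hs
      obtain ⟨T, hT⟩ := att₁ _ (ratesIn_lift₁ hk) _ hs₁ hx01
      set T' := max T 0 with hT'
      have hT'0 : 0 ≤ T' := le_max_right _ _
      have hs₂' := hs₂.shift hT'0
      have hk' : RatesIn (cascade N₁ N₂ γ) ε (fun t => k (t + T')) := by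
        intro r hr
        obtain ⟨hc', hb'⟩ := hk r hr
        refine ⟨?_, fun t ht => hb' (t + T') (by linarith)⟩
        have : ContinuousOn (fun t : ℝ => t + T') (Ici 0) := by fun_prop
        exact hc'.comp this (fun t ht => by simp only [mem_Ici] at ht ⊢; linarith)
      have hu : ContinuousOn (fun t => (fun i => x (t + T') (Sum.inl i))) (Ici 0) :=
        (hs₁.shift hT'0).continuousOn
      have hr₂ : RatesIn N₂ (ε * δ)
          (fun t => effRate γ (k (t + T')) (fun i => x (t + T') (Sum.inl i))) :=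
        ratesIn_eff hε hδ hk' hu (fun r hr t ht => hbδ r hr _
          (hT (t + T') (by have := le_max_left T 0; linarith)))
      have h0 : (fun j => x (0 + T') (Sum.inr j)) ∈ posClass N₂ c₂ := by
        rw [zero_add]
        exact hs₂.mem_posClass hx02 hT'0
      obtain ⟨T₂, hT₂⟩ := att₂ _ hr₂ _ hs₂' h0
      refine ⟨max T' (T₂ + T'), fun t ht => ?_⟩
      refine ⟨(fun i => x t (Sum.inl i), fun j => x t (Sum.inr j)), ⟨?_, ?_⟩, ?_⟩
      · exact hT t (le_trans (le_max_left _ _) (le_trans (le_max_left _ _) ht))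
      · have := hT₂ (t - T') (by have := le_trans (le_max_right _ _) ht; linarith)
        simpa using this
      · funext a
        cases a <;> rfl

end Vale.Agent.P072
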