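import Mathlib

/-!
# P072: mass-action systems, permanence, catalytic cascades (definitions)
-/

namespace Vale.Agent.P072

open Set

/-- A complex on the species set `ι`: a vector of nonnegative integers. -/
abbrev Cplx (ι : Type*) := ι → ℕ

/-- A finite reaction network on the species set `ι`: a finite set of reactions
`(y, y')` (written `y → y'`) between complexes with `y ≠ y'`. -/
structure Network (ι : Type*) where
  /-- the finite set of reactions -/
  R : Finset (Cplx ι × Cplx ι)
  /-- source and target of a reaction are different -/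
  ne : ∀ r ∈ R, r.1 ≠ r.2

/-- Weak reversibility: for every reaction `y → y'` there is a directed path of reactions
from `y'` back to `y`. -/
def WeaklyReversible {ι : Type*} (N : Network ι) : Prop :=
  ∀ r ∈ N.R, Relation.ReflTransGen (fun a b => (a, b) ∈ N.R) r.2 r.1

/-- The monomial `x ^ y = ∏ i, x i ^ y i`. -/
def mon {ι : Type*} [Fintype ι] (x : ι → ℝ) (y : Cplx ι) : ℝ := ∏ i, x i ^ y i

/-- The reaction vector `y' - y` of a reaction `y → y'`. -/
def rvec {ι : Type*} (r : Cplx ι × Cplx ι) : ι → ℝ := fun i => (r.2 i : ℝ) - (r.1 i : ℝ)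

/-- The mass-action vector field `∑_{y → y'} k_{y → y'} x ^ y (y' - y)`. -/
def field {ι : Type*} [Fintype ι] (N : Network ι) (k : Cplx ι × Cplx ι → ℝ) (x : ι → ℝ) :
    ι → ℝ :=
  ∑ r ∈ N.R, (k r * mon x r.1) • rvec r

/-- The stoichiometric subspace: the real span of the reaction vectors. -/
def stoich {ι : Type*} (N : Network ι) : Submodule ℝ (ι → ℝ) :=
  Submodule.span ℝ {v | ∃ r ∈ N.R, v = rvec r}

/-- The positive stoichiometric class of `c`. -/
def posClass {ι : Type*} (N : Network ι) (c : ι → ℝ) : Set (ι → ℝ) :=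
  {x | (∀ i, 0 < x i) ∧ x - c ∈ stoich N}

/-- `x` is a global positive solution on `[0, ∞)` of the mass-action system of `N` with the
(possibly time-dependent) rates `k t`. -/
def IsSol {ι : Type*} [Fintype ι] (N : Network ι) (k : ℝ → Cplx ι × Cplx ι → ℝ)
    (x : ℝ → ι → ℝ) : Prop :=
  ∀ t, 0 ≤ t → (∀ i, 0 < x t i) ∧ HasDerivWithinAt x (field N (k t) (x t)) (Ici 0) t

/-- Permanence on the positive stoichiometric class of `c` for constant rates `k`:
every initial point of the class starts a global positive solution, and there is a compact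
subset `K` of the class that every solution starting in the class eventually enters for good. -/
def PermanentOn {ι : Type*} [Fintype ι] (N : Network ι) (k : Cplx ι × Cplx ι → ℝ)
    (c : ι → ℝ) : Prop :=
  (∀ x0 ∈ posClass N c, ∃ x, IsSol N (fun _ => k) x ∧ x 0 = x0) ∧
  ∃ K, IsCompact K ∧ K ⊆ posClass N c ∧
    ∀ x, IsSol N (fun _ => k) x → x 0 ∈ posClass N c → ∃ T, ∀ t, T ≤ t → x t ∈ K

/-- Time-dependent rates on `[0, ∞)`, continuous in time, with values in `[ε, ε⁻¹]`. -/
def RatesIn {ι : Type*} (N : Network ι) (ε : ℝ) (k : ℝ → Cplx ι × Cplx ι → ℝ) : Prop :=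
  ∀ r ∈ N.R, ContinuousOn (fun t => k t r) (Ici 0) ∧ ∀ t, 0 ≤ t → ε ≤ k t r ∧ k t r ≤ ε⁻¹

/-- Variable-rate permanence: for every `ε > 0` and every positive stoichiometric class, all
systems with continuous rates in `[ε, ε⁻¹]` have global positive solutions from every point of
the class, and one compact subset `K` of the class (depending only on `ε` and the class)
eventually contains all their solutions starting in the class. -/
def VarPermanent {ι : Type*} [Fintype ι] (N : Network ι) : Prop :=
  ∀ ε : ℝ, 0 < ε → ∀ c : ι → ℝ, (∀ i, 0 < c i) →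
    (∀ k, RatesIn N ε k → ∀ x0 ∈ posClass N c, ∃ x, IsSol N k x ∧ x 0 = x0) ∧
    ∃ K, IsCompact K ∧ K ⊆ posClass N c ∧
      ∀ k, RatesIn N ε k → ∀ x, IsSol N k x → x 0 ∈ posClass N c → ∃ T, ∀ t, T ≤ t → x t ∈ K

/-- A reaction of the first network, viewed on the species set `ι ⊕ κ`. -/
def lift₁ {ι κ : Type*} (r : Cplx ι × Cplx ι) : Cplx (ι ⊕ κ) × Cplx (ι ⊕ κ) :=
  (Sum.elim r.1 0, Sum.elim r.2 0)

/-- A reaction `z → z'` of the second network with the catalysts `γ z`, `γ z'` added:
`γ z + z → γ z' + z'` on the species set `ι ⊕ κ`. -/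
def lift₂ {ι κ : Type*} (γ : Cplx κ → Cplx ι) (r : Cplx κ × Cplx κ) :
    Cplx (ι ⊕ κ) × Cplx (ι ⊕ κ) :=
  (Sum.elim (γ r.1) r.1, Sum.elim (γ r.2) r.2)

open Classical in
/-- The catalytic cascade of `N₁` (species `ι`) and `N₂` (species `κ`): all reactions of `N₁`,
together with the reactions `γ z + z → γ z' + z'` for `z → z'` in `N₂`. When `γ z = γ z'` for
every reaction of `N₂`, the species of `N₁` act on `N₂` as catalysts only. -/
noncomputable def cascade {ι κ : Type*} (N₁ : Network ι) (N₂ : Network κ)
    (γ : Cplx κ → Cplx ι) : Network (ι ⊕ κ) where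
  R := N₁.R.image lift₁ ∪ N₂.R.image (lift₂ γ)
  ne := by
    intro r hr
    rcases Finset.mem_union.1 hr with h | h
    · obtain ⟨s, hs, rfl⟩ := Finset.mem_image.1 h
      intro he
      apply N₁.ne s hs
      funext i
      exact congrFun he (Sum.inl i)
    · obtain ⟨s, hs, rfl⟩ := Finset.mem_image.1 h
      intro he
      apply N₂.ne s hs
      funext j
      exact congrFun he (Sum.inr j)

/-- The one-species network `X ⇌ 2X`. -/
def logistic : Network Unit where
  R := {(fun _ => 1, fun _ => 2), (fun _ => 2, fun _ => 1)}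
  ne := by
    intro r hr
    simp only [Finset.mem_insert, Finset.mem_singleton] at hr
    rcases hr with rfl | rfl
    · intro h; have := congrFun h (); simp at this
    · intro h; have := congrFun h (); simp at this

/-- The one-species network `0 ⇌ X`. -/
def inout : Network Unit where
  R := {(fun _ => 0, fun _ => 1), (fun _ => 1, fun _ => 0)}
  ne := by
    intro r hr
    simp only [Finset.mem_insert, Finset.mem_singleton] at hr
    rcases hr with rfl | rfl
    · intro h; have := congrFun h (); simp at this
    · intro h; have := congrFun h (); simp at this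

/-- The smallest class of networks that contains `X ⇌ 2X` and `0 ⇌ X` and is closed under
catalytic cascades (with catalysts that are constant along every reaction). -/
inductive Tower : (ι : Type) → [Fintype ι] → Network ι → Prop
  | logistic : Tower Unit logistic
  | inout : Tower Unit inout
  | cascade {ι κ : Type} [Fintype ι] [Fintype κ] (N₁ : Network ι) (N₂ : Network κ)
      (γ : Cplx κ → Cplx ι) (hγ : ∀ r ∈ N₂.R, γ r.1 = γ r.2) :
      Tower ι N₁ → Tower κ N₂ → Tower (ι ⊕ κ) (cascade N₁ N₂ γ)

end Vale.Agent.P072
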