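import Vale.Agent.Lib.P072.Cascade

namespace Vale.Agent.P072

open Set

/-! ### scalar lemmas for `u' = - a u + b` and `ξ' = a ξ - b ξ ^ 2` with time dependent
coefficients -/

lemma exists_primitive (a : ℝ → ℝ) (ha : Continuous a) :
    ∃ A : ℝ → ℝ, (∀ t, HasDerivAt A (a t) t) ∧ A 0 = 0 ∧
      ((∀ t, 0 ≤ t → 0 ≤ a t) → ∀ t, 0 ≤ t → 0 ≤ A t) := by
  refine ⟨fun t => ∫ s in (0:ℝ)..t, a s, fun t => ?_, by simp, fun h t ht => ?_⟩
  · exact intervalIntegral.integral_hasDerivAt_right (ha.intervalIntegrable _ _)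
      (ha.stronglyMeasurableAtFilter _ _) ha.continuousAt
  · exact intervalIntegral.integral_nonneg ht fun s hs => h s hs.1

/-- existence of a positive solution of the linear equation `u' = - a u + b` -/
lemma linear_exists (a b : ℝ → ℝ) (ha : Continuous a) (hb : Continuous b)
    (hb0 : ∀ t, 0 ≤ t → 0 ≤ b t) (u0 : ℝ) (hu0 : 0 < u0) :
    ∃ u : ℝ → ℝ, u 0 = u0 ∧ ∀ t, 0 ≤ t → 0 < u t ∧ HasDerivAt u (-a t * u t + b t) t := by
  obtain ⟨A, hAd, hA0, -⟩ := exists_primitive a ha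
  have hAc : Continuous A := continuous_iff_continuousAt.2 fun t => (hAd t).continuousAt
  have hgc : Continuous fun s => Real.exp (A s) * b s := (Real.continuous_exp.comp hAc).mul hb
  obtain ⟨G, hGd, hG00, hG0⟩ := exists_primitive _ hgc
  have hG0' : ∀ t, 0 ≤ t → 0 ≤ G t :=
    hG0 fun s hs => mul_nonneg (Real.exp_pos _).le (hb0 s hs)
  have hud : ∀ t, HasDerivAt (fun t => Real.exp (-A t) * (u0 + G t))
      (-a t * (Real.exp (-A t) * (u0 + G t)) + b t) t := by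
    intro t
    have h1 : HasDerivAt (fun t => Real.exp (-A t)) (Real.exp (-A t) * (-a t)) t :=
      ((hAd t).neg).exp
    have h2 : HasDerivAt (fun t => u0 + G t) (Real.exp (A t) * b t) t := (hGd t).const_add _
    have h3 := h1.mul h2
    have h4 : Real.exp (-A t) * (Real.exp (A t) * b t) = b t := by
      rw [← mul_assoc, ← Real.exp_add]; simp
    have h5 : -a t * (Real.exp (-A t) * (u0 + G t)) + b t
        = Real.exp (-A t) * -a t * (u0 + G t) + Real.exp (-A t) * (Real.exp (A t) * b t) := by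
      rw [h4]; ring
    rw [h5]
    exact h3
  refine ⟨fun t => Real.exp (-A t) * (u0 + G t), by simp [hA0, hG00], fun t ht => ⟨?_, hud t⟩⟩
  exact mul_pos (Real.exp_pos _) (add_pos_of_pos_of_nonneg hu0 (hG0' t ht))

/-- every solution of `u' = - a u + b` with coefficients in `[ε, ε⁻¹]` eventually lies in a
compact interval depending only on `ε` -/
lemma linear_attract (ε : ℝ) (hε : 0 < ε) (a b : ℝ → ℝ) (ha : Continuous a)
    (hab : ∀ t, 0 ≤ t → (ε ≤ a t ∧ a t ≤ ε⁻¹) ∧ (ε ≤ b t ∧ b t ≤ ε⁻¹))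
    (u : ℝ → ℝ) (hud : ∀ t, 0 ≤ t → HasDerivWithinAt u (-a t * u t + b t) (Ici 0) t) :
    ∃ T, ∀ t, T ≤ t → u t ∈ Icc (ε ^ 2 / 2) (ε⁻¹ ^ 2 + 1) := by
  have h0mem : (0:ℝ) ∈ Ici (0:ℝ) := mem_Ici.2 (le_refl _)
  obtain ⟨A, hAd, hA0, -⟩ := exists_primitive a ha
  -- A t ≥ ε t
  have hAge : ∀ t, 0 ≤ t → ε * t ≤ A t := by
    have hd : ∀ t, HasDerivAt (fun t => A t - ε * t) (a t - ε * 1) t :=
      fun t => (hAd t).sub ((hasDerivAt_id t).const_mul ε)
    have hm : MonotoneOn (fun t => A t - ε * t) (Ici 0) := by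
      apply monotoneOn_of_deriv_nonneg (convex_Ici 0)
      · exact fun t _ => (hd t).continuousAt.continuousWithinAt
      · exact fun t _ => (hd t).differentiableAt.differentiableWithinAt
      · intro t ht
        rw [interior_Ici] at ht
        rw [(hd t).deriv]
        have := (hab t (le_of_lt ht)).1.1
        linarith
    intro t ht
    have := hm h0mem ht ht
    simp only [hA0, mul_zero, sub_zero] at this
    linarith
  have hEd : ∀ t, HasDerivAt (fun t => Real.exp (A t)) (Real.exp (A t) * a t) t :=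
    fun t => (hAd t).exp
  have hEge : ∀ t, 0 ≤ t → ε * t + 1 ≤ Real.exp (A t) := fun t ht =>
    le_trans (by linarith [hAge t ht]) (Real.add_one_le_exp (A t))
  -- the auxiliary functions (u - c) E
  have hφd : ∀ c t, 0 ≤ t → HasDerivWithinAt (fun t => (u t - c) * Real.exp (A t))
      ((b t - c * a t) * Real.exp (A t)) (Ici 0) t := by
    intro c t ht
    have h := ((hud t ht).sub_const c).mul (hEd t).hasDerivWithinAt
    have h6 : (b t - c * a t) * Real.exp (A t)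
        = (-a t * u t + b t) * Real.exp (A t) + (u t - c) * (Real.exp (A t) * a t) := by
      ring
    rw [h6]
    exact h
  have hφc : ∀ c, ContinuousOn (fun t => (u t - c) * Real.exp (A t)) (Ici 0) :=
    fun c t ht => (hφd c t ht).continuousWithinAt
  have hφdi : ∀ c t, t ∈ interior (Ici (0:ℝ)) →
      HasDerivAt (fun t => (u t - c) * Real.exp (A t))
        ((b t - c * a t) * Real.exp (A t)) t := by
    intro c t ht
    rw [interior_Ici] at ht
    exact (hφd c t (le_of_lt ht)).hasDerivAt (Ici_mem_nhds ht)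
  -- upper bound for u
  have hup : ∀ t, 0 ≤ t → (u t - ε⁻¹ ^ 2) * Real.exp (A t) ≤ u 0 - ε⁻¹ ^ 2 := by
    have hm : AntitoneOn (fun t => (u t - ε⁻¹ ^ 2) * Real.exp (A t)) (Ici 0) := by
      apply antitoneOn_of_deriv_nonpos (convex_Ici 0) (hφc _)
      · exact fun t ht => (hφdi _ t ht).differentiableAt.differentiableWithinAt
      · intro t ht
        rw [(hφdi _ t ht).deriv]
        rw [interior_Ici] at ht
        obtain ⟨⟨a1, _⟩, ⟨_, b2⟩⟩ := hab t (le_of_lt ht)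
        apply mul_nonpos_of_nonpos_of_nonneg _ (Real.exp_pos _).le
        have : ε⁻¹ ^ 2 * ε ≤ ε⁻¹ ^ 2 * a t := mul_le_mul_of_nonneg_left a1 (by positivity)
        have h2 : ε⁻¹ ^ 2 * ε = ε⁻¹ := by field_simp
        linarith
    intro t ht
    have := hm h0mem ht ht
    simpa [hA0] using this
  have hlo : ∀ t, 0 ≤ t → u 0 - ε ^ 2 ≤ (u t - ε ^ 2) * Real.exp (A t) := by
    have hm : MonotoneOn (fun t => (u t - ε ^ 2) * Real.exp (A t)) (Ici 0) := by
      apply monotoneOn_of_deriv_nonneg (convex_Ici 0) (hφc _)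
      · exact fun t ht => (hφdi _ t ht).differentiableAt.differentiableWithinAt
      · intro t ht
        rw [(hφdi _ t ht).deriv]
        rw [interior_Ici] at ht
        obtain ⟨⟨_, a2⟩, ⟨b1, _⟩⟩ := hab t (le_of_lt ht)
        apply mul_nonneg _ (Real.exp_pos _).le
        have : ε ^ 2 * a t ≤ ε ^ 2 * ε⁻¹ := mul_le_mul_of_nonneg_left a2 (by positivity)
        have h2 : ε ^ 2 * ε⁻¹ = ε := by field_simp
        linarith
    intro t ht
    have := hm h0mem ht ht
    simpa [hA0] using this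
  -- choose T
  obtain ⟨M, hM⟩ : ∃ M : ℝ, M = |u 0 - ε⁻¹ ^ 2| + |u 0 - ε ^ 2| * (2 / ε ^ 2) := ⟨_, rfl⟩
  have hM0 : 0 ≤ M := by rw [hM]; positivity
  refine ⟨M / ε, fun t ht => ?_⟩
  have ht0 : 0 ≤ t := le_trans (by positivity) ht
  have hMt : M ≤ ε * t := by
    rw [div_le_iff₀ hε] at ht
    linarith
  have hEt : M + 1 ≤ Real.exp (A t) := by linarith [hEge t ht0]
  have hE1 : 0 < Real.exp (A t) := Real.exp_pos _
  have h1 : u t ≤ ε⁻¹ ^ 2 + 1 := by
    by_contra hcon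
    have hcon' : ε⁻¹ ^ 2 + 1 < u t := not_le.1 hcon
    have h2 : Real.exp (A t) < (u t - ε⁻¹ ^ 2) * Real.exp (A t) := by
      have : 1 < u t - ε⁻¹ ^ 2 := by linarith
      nlinarith
    have h3 := hup t ht0
    have h4 : u 0 - ε⁻¹ ^ 2 ≤ |u 0 - ε⁻¹ ^ 2| := le_abs_self _
    have h5 : 0 ≤ |u 0 - ε ^ 2| * (2 / ε ^ 2) := by positivity
    linarith
  have h2 : ε ^ 2 / 2 ≤ u t := by
    by_contra hcon
    have hcon' : u t < ε ^ 2 / 2 := not_le.1 hcon
    have hε2 : 0 < ε ^ 2 / 2 := by positivity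
    have h3 : (u t - ε ^ 2) * Real.exp (A t) < -(ε ^ 2 / 2) * Real.exp (A t) := by
      have : u t - ε ^ 2 < -(ε ^ 2 / 2) := by linarith
      exact mul_lt_mul_of_pos_right this hE1
    have h4 := hlo t ht0
    have h5 : -|u 0 - ε ^ 2| ≤ u 0 - ε ^ 2 := neg_abs_le _
    have h6 : |u 0 - ε ^ 2| * (2 / ε ^ 2) ≤ M := by
      have : 0 ≤ |u 0 - ε⁻¹ ^ 2| := abs_nonneg _
      linarith
    have h7 : (ε ^ 2 / 2) * (|u 0 - ε ^ 2| * (2 / ε ^ 2)) = |u 0 - ε ^ 2| := by
      field_simp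
    have h8 : (ε ^ 2 / 2) * (|u 0 - ε ^ 2| * (2 / ε ^ 2)) ≤ (ε ^ 2 / 2) * Real.exp (A t) :=
      mul_le_mul_of_nonneg_left (by linarith) hε2.le
    linarith
  exact ⟨h2, h1⟩

/-- existence of a positive solution of the time dependent logistic equation -/
lemma logistic_exists (a b : ℝ → ℝ) (ha : Continuous a) (hb : Continuous b)
    (hb0 : ∀ t, 0 ≤ t → 0 ≤ b t) (x0 : ℝ) (hx0 : 0 < x0) :
    ∃ ξ : ℝ → ℝ, ξ 0 = x0 ∧ ∀ t, 0 ≤ t → 0 < ξ t ∧ HasDerivAt ξ (a t * ξ t - b t * ξ t ^ 2) t := by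
  obtain ⟨u, hu0, hu⟩ := linear_exists a b ha hb hb0 x0⁻¹ (inv_pos.2 hx0)
  refine ⟨fun t => (u t)⁻¹, by simp [hu0], fun t ht => ?_⟩
  obtain ⟨hp, hd⟩ := hu t ht
  refine ⟨inv_pos.2 hp, ?_⟩
  have h := hd.inv hp.ne'
  have h6 : a t * (u t)⁻¹ - b t * (u t)⁻¹ ^ 2 = -(-a t * u t + b t) / u t ^ 2 := by
    field_simp
    ring
  rw [h6]
  exact h

/-- every positive solution of the time dependent logistic equation with coefficients in
`[ε, ε⁻¹]` eventually lies in a compact interval depending only on `ε` -/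
lemma logistic_attract (ε : ℝ) (hε : 0 < ε) (a b : ℝ → ℝ) (ha : Continuous a)
    (hab : ∀ t, 0 ≤ t → (ε ≤ a t ∧ a t ≤ ε⁻¹) ∧ (ε ≤ b t ∧ b t ≤ ε⁻¹))
    (ξ : ℝ → ℝ)
    (hξ : ∀ t, 0 ≤ t → 0 < ξ t ∧ HasDerivWithinAt ξ (a t * ξ t - b t * ξ t ^ 2) (Ici 0) t) :
    ∃ T, ∀ t, T ≤ t → ξ t ∈ Icc ((ε⁻¹ ^ 2 + 1)⁻¹) ((ε ^ 2 / 2)⁻¹) := by
  have hud : ∀ t, 0 ≤ t →
      HasDerivWithinAt (fun t => (ξ t)⁻¹) (-a t * (ξ t)⁻¹ + b t) (Ici 0) t := by
    intro t ht
    have hp := (hξ t ht).1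
    have h := (hξ t ht).2.inv hp.ne'
    have h6 : -a t * (ξ t)⁻¹ + b t = -(a t * ξ t - b t * ξ t ^ 2) / ξ t ^ 2 := by
      field_simp
      ring
    rw [h6]
    exact h
  obtain ⟨T, hT⟩ := linear_attract ε hε a b ha hab _ hud
  refine ⟨T, fun t ht => ?_⟩
  obtain ⟨h2, h1⟩ := hT t ht
  have hpos : 0 < (ξ t)⁻¹ := lt_of_lt_of_le (by positivity) h2
  have hξu : ξ t = ((ξ t)⁻¹)⁻¹ := (inv_inv _).symm
  rw [hξu]
  exact ⟨inv_anti₀ hpos h1, inv_anti₀ (by positivity) h2⟩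


/-! ### one-species networks with two reactions -/

lemma varPermanent_unit (N : Network Unit) (r₁ r₂ : Cplx Unit × Cplx Unit)
    (h₁ : r₁ ∈ N.R) (h₂ : r₂ ∈ N.R) (F : ℝ → ℝ → ℝ → ℝ)
    (hF : ∀ k x, field N k x () = F (k r₁) (k r₂) (x ()))
    (hS : ∀ v, v ∈ stoich N)
    (hex : ∀ a b : ℝ → ℝ, Continuous a → Continuous b → (∀ t, 0 ≤ t → 0 ≤ a t) →
      (∀ t, 0 ≤ t → 0 ≤ b t) → ∀ x0 : ℝ, 0 < x0 →
      ∃ ξ : ℝ → ℝ, ξ 0 = x0 ∧ ∀ t, 0 ≤ t → 0 < ξ t ∧ HasDerivAt ξ (F (a t) (b t) (ξ t)) t)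
    (hatt : ∀ ε : ℝ, 0 < ε → ∃ lo hi : ℝ, 0 < lo ∧ ∀ a b : ℝ → ℝ, Continuous a → Continuous b →
      (∀ t, 0 ≤ t → (ε ≤ a t ∧ a t ≤ ε⁻¹) ∧ (ε ≤ b t ∧ b t ≤ ε⁻¹)) → ∀ ξ : ℝ → ℝ,
      (∀ t, 0 ≤ t → 0 < ξ t ∧ HasDerivWithinAt ξ (F (a t) (b t) (ξ t)) (Ici 0) t) →
      ∃ T, ∀ t, T ≤ t → ξ t ∈ Icc lo hi) :
    VarPermanent N := by
  intro ε hε c hc
  have hext : ∀ (k : ℝ → Cplx Unit × Cplx Unit → ℝ) (r : Cplx Unit × Cplx Unit),
      ContinuousOn (fun t => k t r) (Ici 0) → Continuous fun t => k (max t 0) r := by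
    intro k r hk
    exact hk.comp_continuous (continuous_id.max continuous_const) (fun t => mem_Ici.2 (le_max_right _ _))
  refine ⟨?_, ?_⟩
  · intro k hk x0 hx0
    obtain ⟨c1, b1⟩ := hk r₁ h₁
    obtain ⟨c2, b2⟩ := hk r₂ h₂
    obtain ⟨ξ, hξ0, hξ⟩ := hex (fun t => k (max t 0) r₁) (fun t => k (max t 0) r₂)
      (hext k r₁ c1) (hext k r₂ c2)
      (fun t ht => le_trans hε.le (b1 _ (le_max_right _ _)).1)
      (fun t ht => le_trans hε.le (b2 _ (le_max_right _ _)).1) (x0 ()) (hx0.1 ())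
    refine ⟨fun t _ => ξ t, fun t ht => ⟨fun _ => (hξ t ht).1, ?_⟩, ?_⟩
    · rw [hasDerivWithinAt_pi]
      rintro ⟨⟩
      rw [hF]
      have := (hξ t ht).2.hasDerivWithinAt (s := Ici 0)
      simpa [max_eq_left ht] using this
    · funext i
      cases i
      exact hξ0
  · obtain ⟨lo, hi, hlo, hA⟩ := hatt ε hε
    refine ⟨Set.pi univ fun _ : Unit => Icc lo hi, isCompact_univ_pi fun _ => isCompact_Icc,
      ?_, ?_⟩
    · intro x hx
      refine ⟨fun i => lt_of_lt_of_le hlo (hx i (mem_univ i)).1, hS _⟩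
    · intro k hk x hx _
      obtain ⟨c1, b1⟩ := hk r₁ h₁
      obtain ⟨c2, b2⟩ := hk r₂ h₂
      obtain ⟨T, hT⟩ := hA (fun t => k (max t 0) r₁) (fun t => k (max t 0) r₂)
        (hext k r₁ c1) (hext k r₂ c2)
        (fun t ht => ⟨b1 _ (le_max_right _ _), b2 _ (le_max_right _ _)⟩) (fun t => x t ())
        (fun t ht => ⟨(hx t ht).1 (), by
          have := (hasDerivWithinAt_pi.1 (hx t ht).2) ()
          rw [hF] at this
          simpa [max_eq_left ht] using this⟩)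
      exact ⟨T, fun t ht i _ => hT t ht⟩

lemma stoich_unit_top (N : Network Unit) (r : Cplx Unit × Cplx Unit) (hr : r ∈ N.R)
    (hne : rvec r () ≠ 0) (v : Unit → ℝ) : v ∈ stoich N := by
  have : v = (v () / rvec r ()) • rvec r := by
    funext i
    cases i
    simp only [Pi.smul_apply, smul_eq_mul]
    field_simp
  rw [this]
  exact Submodule.smul_mem _ _ (Submodule.subset_span ⟨r, hr, rfl⟩)

theorem varPermanent_logistic : VarPermanent logistic := by
  have hne : ((fun _ => 1, fun _ => 2) : Cplx Unit × Cplx Unit) ≠ (fun _ => 2, fun _ => 1) := by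
    intro h
    have := congrFun (congrArg Prod.fst h) ()
    simp at this
  apply varPermanent_unit logistic (fun _ => 1, fun _ => 2) (fun _ => 2, fun _ => 1)
    (by simp [logistic]) (by simp [logistic]) (fun a b ξ => a * ξ - b * ξ ^ 2)
  · intro k x
    simp only [field, logistic]
    rw [Finset.sum_pair hne]
    simp [mon, rvec]
    ring
  · exact stoich_unit_top logistic (fun _ => 1, fun _ => 2) (by simp [logistic])
      (by simp [rvec]; norm_num)
  · intro a b ha hb _ hb0 x0 hx0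
    exact logistic_exists a b ha hb hb0 x0 hx0
  · intro ε hε
    refine ⟨(ε⁻¹ ^ 2 + 1)⁻¹, (ε ^ 2 / 2)⁻¹, by positivity, ?_⟩
    intro a b ha _ hab ξ hξ
    exact logistic_attract ε hε a b ha hab ξ hξ

theorem varPermanent_inout : VarPermanent inout := by
  have hne : ((fun _ => 0, fun _ => 1) : Cplx Unit × Cplx Unit) ≠ (fun _ => 1, fun _ => 0) := by
    intro h
    have := congrFun (congrArg Prod.fst h) ()
    simp at this
  apply varPermanent_unit inout (fun _ => 0, fun _ => 1) (fun _ => 1, fun _ => 0)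
    (by simp [inout]) (by simp [inout]) (fun a b ξ => -b * ξ + a)
  · intro k x
    simp only [field, inout]
    rw [Finset.sum_pair hne]
    simp [mon, rvec]
    ring
  · exact stoich_unit_top inout (fun _ => 0, fun _ => 1) (by simp [inout])
      (by simp [rvec])
  · intro a b ha hb ha0 _ x0 hx0
    exact linear_exists b a hb ha ha0 x0 hx0
  · intro ε hε
    refine ⟨ε ^ 2 / 2, ε⁻¹ ^ 2 + 1, by positivity, ?_⟩
    intro a b _ hb hab ξ hξ
    exact linear_attract ε hε b a hb (fun t ht => ⟨(hab t ht).2, (hab t ht).1⟩) ξ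
      (fun t ht => (hξ t ht).2)

lemma weaklyReversible_logistic : WeaklyReversible logistic := by
  intro r hr
  simp only [logistic, Finset.mem_insert, Finset.mem_singleton] at hr
  rcases hr with rfl | rfl
  · exact Relation.ReflTransGen.single (by simp [logistic])
  · exact Relation.ReflTransGen.single (by simp [logistic])

lemma weaklyReversible_inout : WeaklyReversible inout := by
  intro r hr
  simp only [inout, Finset.mem_insert, Finset.mem_singleton] at hr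
  rcases hr with rfl | rfl
  · exact Relation.ReflTransGen.single (by simp [inout])
  · exact Relation.ReflTransGen.single (by simp [inout])

end Vale.Agent.P072
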